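import Vale.Agent.P323.P11.Iface

/-!
# Every condition has an extension of the form `(a 1, p)`; the trivial pseudogroup
-/

namespace Vale.Agent.P323.H309

open CategoryTheory Vale.Agent.P323.Z Vale.Agent.P323.P11

variable {D : Type 1} [Category.{1} D]

/-- The smallest pseudogroup: pairs `(s, s)` with `s` split epi. -/
def trivPG [TwBase D] (i : Ordinal.{0}) (b : D) (hb : Mem i (𝟙 b)) : PG D i b where
  rel s t := Mem i s ∧ s = t ∧ ∃ v, v ≫ s = 𝟙 b
  mem := by
    rintro d s t ⟨h, rfl, -⟩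
    exact ⟨h, h⟩
  one := ⟨hb, rfl, 𝟙 b, Category.comp_id _⟩
  symm := by
    rintro d s t ⟨h, rfl, h'⟩
    exact ⟨h, rfl, h'⟩
  comp := by
    rintro d d' e s t s' t' g g' ⟨hs, rfl, v, hv⟩ ⟨hs', rfl, v', hv'⟩ hpb hg hg'
    refine ⟨TwBase.mem_comp hg hs, hpb.1, ?_⟩
    obtain ⟨w, hw, -⟩ := hpb.2 v v' (hv.trans hv'.symm)
    exact ⟨w, by rw [← Category.assoc, hw, hv]⟩
  up := by
    rintro d e s t g hs ht hg ⟨-, h, v, hv⟩
    have h1 : s ≫ v ≫ g = 𝟙 d := by
      have := TwBase.mono s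
      rw [← cancel_mono s]
      simp only [Category.assoc, Category.id_comp]
      rw [hv, Category.comp_id]
    refine ⟨hs, ?_, v ≫ g, by rw [Category.assoc, hv]⟩
    calc s = s ≫ (v ≫ g ≫ t) := by rw [← h, hv, Category.comp_id]
      _ = (s ≫ v ≫ g) ≫ t := by simp only [Category.assoc]
      _ = t := by rw [h1, Category.id_comp]

/-- every object has a map to `a 1` -/
theorem to_a1 [Tw D] (x : D) : Nonempty (x ⟶ (a 1 : D)) := by
  obtain ⟨α⟩ := TwBase.from_a0 x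
  obtain ⟨i, hi⟩ := TwBase.mem_ex α
  have hb : Mem i (𝟙 (a 1 : D)) :=
    TwBase.mem_mono (bot_le) (TwBase.mem_tgt (TwBase.ι_mem (D := D) 0))
  exact ⟨Tw.gen (i := i)
    { n := 0, c := x, α := α, b := a 1, E := trivPG i (a 1) hb, γ := 𝟙 (a 1), hα := hi, hγ := hb
      inv := by
        rintro d s t ⟨-, rfl, v, hv⟩
        exact ⟨v, hv, hv⟩ }⟩

/-- every condition has an extension over `a 1` -/
theorem exists_X0 [Tw D] (X : CObj D) :
    ∃ (p0 : Col (a 1 : D)) (h0 : Sm p0), Nonempty (X ⟶ XX0 p0 h0) := by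
  obtain ⟨f⟩ := to_a1 X.x
  exact ⟨Col.push f X.p, sm_push f X.sm, ⟨CHom.mk f (fun z c hz => by
    change Col.push f X.p (Dn.post f z) = some c
    rw [Col.push_post]; exact hz)⟩⟩

end Vale.Agent.P323.H309
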