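import Vale.Agent.P323.P11.Stmts
import Vale.Agent.P323.H309.Start

/-!
# Section 11, parts C, C', X: Q-pieces, stages, start
-/

namespace Vale.Agent.P323.H309

open CategoryTheory Vale.Agent.P323.Z NameTheory Vale.Agent.P323.P11

/-- maximal families of pairwise non overlapping elements -/
theorem exists_maxfam {T : Type*} (Ov : T → T → Prop) (hsymm : ∀ {a b : T}, Ov a b → Ov b a)
    (hrefl : ∀ a : T, Ov a a) :
    ∃ S : Set T, (∀ a ∈ S, ∀ b ∈ S, Ov a b → a = b) ∧ ∀ a, ∃ b ∈ S, Ov a b := by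
  obtain ⟨S, hS⟩ := zorn_subset {S : Set T | ∀ a ∈ S, ∀ b ∈ S, Ov a b → a = b} (by
    intro c hc hch
    refine ⟨⋃₀ c, ?_, fun s hs => Set.subset_sUnion_of_mem hs⟩
    rintro a ⟨s, hs, ha⟩ b ⟨t, ht, hb⟩ hab
    rcases hch.total hs ht with h | h
    · exact hc ht a (h ha) b hb hab
    · exact hc hs a ha b (h hb) hab)
  refine ⟨S, hS.prop, fun a => ?_⟩
  by_contra hcon
  push Not at hcon
  have hins : insert a S ∈ {S : Set T | ∀ a ∈ S, ∀ b ∈ S, Ov a b → a = b} := by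
    intro x hx y hy hxy
    rcases Set.mem_insert_iff.1 hx with hxa | hx
    · rcases Set.mem_insert_iff.1 hy with hya | hy
      · rw [hxa, hya]
      · rw [hxa] at hxy
        exact absurd hxy (hcon y hy)
    · rcases Set.mem_insert_iff.1 hy with hya | hy
      · rw [hya] at hxy
        exact absurd (hsymm hxy) (hcon x hx)
      · exact hS.prop x hx y hy hxy
  have ha : a ∈ S := hS.le_of_ge hins (Set.subset_insert a S) (Set.mem_insert a S)
  exact hcon a ha (hrefl a)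

variable {D : Type 1} [Category.{1} D] [Tw D] [NameTheory (CObj D)]

/-- every situation over `P` is, after recolouring, given by a Q-piece -/
theorem exists_qpiece (h9 : Thm9Stmt D) {X0 X1 : CObj D} (ιX : X0 ⟶ X1) {F A B : N X0}
    (P : Piece F A B) {W : CObj D} (v : X1 ⟶ W) (e₀ : P.Z ⟶ W) (hc : P.u ≫ e₀ = ιX ≫ v) :
    ∃ (Q : QPiece ιX P) (w : W ⟶ Q.Bq), Q.γ = v ≫ w ∧ Q.e = e₀ ≫ w := by
  obtain ⟨i, r, G, le, sm, hi, hinv, h9'⟩ := h9 W (mv e₀ P.y) _ v.u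
  let w : W ⟶ recol W r sm := toRecol W r sm le
  have hu : ∀ {W' : CObj D} (e : recol W r sm ⟶ W'), (w ≫ e).u = e.u := fun e =>
    Category.id_comp _
  have key : ∀ {W' : CObj D} (e : recol W r sm ⟶ W'), Col.Le r (Col.pull (w ≫ e).u W'.p) := by
    intro W' e
    rw [hu]
    exact CHom.le e
  have hvu : (v ≫ w).u = v.u := Category.comp_id _
  refine ⟨{ Bq := recol W r sm
            γ := v ≫ w
            e := e₀ ≫ w
            comm := by rw [← Category.assoc, hc, Category.assoc]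
            i := i
            G := G
            hγ := by
              rw [hvu]
              exact hi
            inv := ?_
            perf := ?_ }, w, rfl, rfl⟩
  · intro d s t hst
    rw [hvu]
    exact hinv hst
  · intro W' e₁ e₂
    have h3 := h9' (w ≫ e₁) (w ≫ e₂) (key e₁) (key e₂)
    rw [hu, hu] at h3
    rw [← h3]
    have hv2 : ∀ e : recol W r sm ⟶ W', ((v ≫ w) ≫ e).u = v.u ≫ e.u := fun e =>
      congrArg (fun t => t ≫ e.u) hvu
    have h4 : (v ≫ w) ≫ e₁ = (v ≫ w) ≫ e₂ ↔ v.u ≫ e₁.u = v.u ≫ e₂.u := by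
      constructor
      · intro h
        rw [← hv2, ← hv2, h]
      · intro h
        apply chom_ext
        rw [hv2, hv2, h]
    rw [h4, mv_mv, mv_mv, Category.assoc, Category.assoc]

/-- S11-c -/
theorem stmtC (h9 : Thm9Stmt D) : StmtC D := by
  intro X0 X1 ιX F A B P
  obtain ⟨T, hT, hcov⟩ := exists_maxfam (fun Q Q' : QPiece ιX P =>
      ∃ (W : CObj D) (e : Q.Bq ⟶ W) (e' : Q'.Bq ⟶ W), Q.γ ≫ e = Q'.γ ≫ e' ∧
        feq (mv (Q.e ≫ e) P.y) (mv (Q'.e ≫ e') P.y)) (by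
    rintro Q Q' ⟨W, e, e', h1, h2⟩
    exact ⟨W, e', e, h1.symm, feq_symm h2⟩) (fun Q => ⟨Q.Bq, 𝟙 _, 𝟙 _, rfl, feq_refl _⟩)
  refine ⟨T, ?_, ?_⟩
  · intro Q hQ Q' hQ' W e e' h1 h2
    exact hT Q hQ Q' hQ' ⟨W, e, e', h1, h2⟩
  · intro W v e₀ hc
    obtain ⟨Q₀, w, hγ, he⟩ := exists_qpiece h9 ιX P v e₀ hc
    obtain ⟨Q, hQ, W', e', e, h1, h2⟩ := hcov Q₀
    refine ⟨W', w ≫ e', Q, hQ, e, ?_, ?_⟩
    · rw [← h1, hγ, Category.assoc]
    · rw [he, Category.assoc] at h2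
      exact h2

/-- S11-c' -/
theorem stmtC' (hcard : CardStmt D) : StmtC' D := by
  classical
  intro n p0 h0 F A B P T hT
  have hasg : ∃ asg : Ordinal.{0} → Option (QPiece (ιX p0 h0) P),
      ∀ Q ∈ T, ∀ o, ∃ b, o ≤ b ∧ asg b = some Q := by
    by_cases hne : T.Nonempty
    · obtain ⟨f, hf⟩ := hcard T (XX1 p0 h0) P.Z (fun Q => ⟨Q.1.Bq, Q.1.γ, Q.1.e⟩) (by
        rintro ⟨Q, hQ⟩ ⟨Q', hQ'⟩ h
        apply Subtype.ext
        have h1 : ∀ (b b' : CObj D) (g : (XX1 p0 h0 ⟶ b) × (P.Z ⟶ b))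
            (g' : (XX1 p0 h0 ⟶ b') × (P.Z ⟶ b')),
            (⟨b, g⟩ : Σ b : CObj D, (XX1 p0 h0 ⟶ b) × (P.Z ⟶ b)) = ⟨b', g'⟩ →
            ∃ (W : CObj D) (e : b ⟶ W) (e' : b' ⟶ W), g.1 ≫ e = g'.1 ≫ e' ∧
              g.2 ≫ e = g'.2 ≫ e' := by
          intro b b' g g' h
          cases h
          exact ⟨b, 𝟙 _, 𝟙 _, rfl, rfl⟩
        obtain ⟨W, e, e', h2, h3⟩ := h1 _ _ _ _ h
        refine hT Q hQ Q' hQ' e e' h2 ?_
        rw [show Q.e ≫ e = Q'.e ≫ e' from h3]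
        exact feq_refl _) ⟨⟨_, hne.some_mem⟩⟩
      refine ⟨fun o => some (f o).1, fun Q hQ o => ?_⟩
      obtain ⟨b, hb, hfb⟩ := hf ⟨Q, hQ⟩ o
      exact ⟨b, hb, congrArg (fun t => some (Subtype.val t)) hfb⟩
    · exact ⟨fun _ => none, fun Q hQ => absurd ⟨Q, hQ⟩ hne⟩
  obtain ⟨asg, hasg⟩ := hasg
  refine ⟨fun Q => {i | Large P Q i ∧ asg i = some Q}, ?_, ?_, ?_⟩
  · rintro Q Q' i ⟨-, h1⟩ ⟨-, h2⟩
    rw [h1] at h2
    exact Option.some.inj h2
  · rintro Q i ⟨h, -⟩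
    exact h
  · intro Q hQ j
    obtain ⟨o, ho⟩ := TwBase.mem_ex (x := a n) (y := P.Z'.x) P.α.u
    obtain ⟨b, hb, hasgb⟩ := hasg Q hQ (max j (max Q.i o))
    refine ⟨b, ⟨⟨?_, ?_⟩, hasgb⟩, le_trans (le_max_left _ _) hb⟩
    · exact le_trans (le_trans (le_max_left _ _) (le_max_right _ _)) hb
    · exact TwBase.mem_mono (le_trans (le_trans (le_max_right _ _) (le_max_right _ _)) hb) ho

omit [NameTheory (CObj D)] in
/-- S11-c'' -/
theorem stmtX : StmtX D := exists_X0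

end Vale.Agent.P323.H309
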