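import Vale.Agent.P323.P11.Stmts
import Vale.Agent.P323.H70.Total

/-!
# Section 11, parts G', G: totality of `J`
-/

namespace Vale.Agent.P323.H309

open CategoryTheory Vale.Agent.P323.Z NameTheory Vale.Agent.P323.P11

variable {D : Type 1} [Category.{1} D] [Tw D] [NameTheory (CObj D)]

/-- S11-g' -/
theorem stmtG' (hJS : JSStmt D) : StmtG' D := by
  classical
  intro n p0 h0 F A B St P hP Q hQ W2 e1
  obtain ⟨i0, hi0, -⟩ := St.I_unb P Q hQ 0
  let f : Ordinal.{0} → (P.Z'.x ⟶ Q.Bq.x) := fun i =>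
    if h : i ∈ St.I P Q then fg P Q i (St.I_large P Q i h) else fg P Q i0 (St.I_large P Q i0 hi0)
  have hfi : ∀ i (h : i ∈ St.I P Q), f i = fg P Q i (St.I_large P Q i h) := by
    intro i h
    exact dif_pos h
  obtain ⟨q, hle, hsm, i, hi, hgood, hleast⟩ := _root_.P323.H70.exists_least_good P.k P.cons P.u.u
    Q.e (St.I P Q) (fun o => by
      obtain ⟨i, hi, ho⟩ := St.I_unb P Q hQ o
      exact ⟨i, hi, ho⟩) f (by
      intro i hi
      rw [hfi i hi]
      have h1 := fg_α P Q i (St.I_large P Q i hi)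
      have h2 := congrArg CHom.u Q.comm
      rw [← comp_u, h2, ← h1, Piece.α, comp_u, Category.assoc]) e1 (by
      intro i hi j hj d s t hst hs ht
      rw [hfi i hi, hfi j hj] at hst
      exact js_stage hJS P Q Q i j _ _ e1 e1 rfl s t hst hs ht)
  have hm : Sm (Col.pull e1.u q) := by
    have hsm' : Small.{0} {z // q z ≠ none} := hsm
    refine small_of_injective (β := {z // q z ≠ none})
      (f := fun z => (⟨Dn.post e1.u z.1, z.2⟩ : {z // q z ≠ none})) ?_
    intro z z' hzz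
    exact Subtype.ext (Dn.post_injective e1.u (congrArg (fun t => t.1) hzz))
  rw [hfi i hi] at hgood
  let m : JIdx St :=
    { P := P, hP := hP, Q := Q, hQ := hQ, i := i, hi := hi
      r := Col.pull e1.u q
      le := Col.Le.trans (CHom.le e1) (hle.pull e1.u)
      sm := hm
      good := hgood
      least := by
        intro j hji hj
        have h1 := hleast j hj hji
        rwa [hfi j hj] at h1 }
  let w3 : W2 ⟶ recol W2 q hsm := toRecol W2 q hsm hle
  let w : m.O ⟶ recol W2 q hsm := CHom.mk e1.u (Col.Le.refl _)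
  have hγw : m.v ≫ w = Q.γ ≫ e1 ≫ w3 := by
    apply chom_ext
    show (Q.γ.u ≫ 𝟙 _) ≫ e1.u = Q.γ.u ≫ e1.u ≫ 𝟙 _
    rw [Category.comp_id, Category.comp_id]
  have hew : m.eZ ≫ w = Q.e ≫ e1 ≫ w3 := by
    apply chom_ext
    show (Q.e.u ≫ 𝟙 _) ≫ e1.u = Q.e.u ≫ e1.u ≫ 𝟙 _
    rw [Category.comp_id, Category.comp_id]
  refine ⟨recol W2 q hsm, w3, m, w, hγw, ?_⟩
  have h3 : mv w m.y = mv (Q.e ≫ e1 ≫ w3) P.y := by
    rw [← hew]
    exact mv_mv _ _ _
  rw [h3]
  exact feq_refl _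

/-- S11-g -/
theorem stmtG (hJS : JSStmt D) : StmtG D := by
  intro n p0 h0 F A B St W v y0 hy0
  obtain ⟨W1, w1, P, hP, e0, hu, hy⟩ := St.S_cover _ y0 hy0
  obtain ⟨W2, w2, Q, hQ, e1, hγ, hy'⟩ := St.T_cover P (v ≫ w1) e0 (by
    rw [hu, Category.assoc])
  obtain ⟨W3, w3, m, w, h1, h2⟩ := stmtG' hJS St P hP Q hQ e1
  refine ⟨W3, w1 ≫ w2 ≫ w3, m, w, ?_, ?_⟩
  · rw [h1, ← Category.assoc, hγ, Category.assoc, Category.assoc]
  · have h3 := feq_mv (w2 ≫ w3) hy
    have h4 := feq_mv w3 hy'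
    rw [mv_mv, mv_mv] at h3
    rw [mv_mv, mv_mv, Category.assoc, Category.assoc] at h4
    exact feq_trans h3 (feq_trans h4 h2)

end Vale.Agent.P323.H309
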