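import Vale.Agent.P323.P11.Iface
import Vale.Agent.P323.H70.Total

/-!
# Section 11, `J` is total
-/

namespace Vale.Agent.P323.H309

open CategoryTheory Vale.Agent.P323.Z NameTheory Vale.Agent.P323.P11

variable {D : Type 1} [Category.{1} D] [Tw D] [NameTheory (CObj D)]
variable {n : ℕ} {p0 : Col (a n : D)} {h0 : Sm p0} {F A B : N (XX0 p0 h0)}

/-- sufficient condition for membership in `J` -/
theorem mem_J (St : Setup F A B) (m : JIdx St) {W : CObj D} (w : m.O ⟶ W) (v : XX1 p0 h0 ⟶ W)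
    (hv : m.v ≫ w = v) (ρ : N W) (hρ : feq ρ (mv w (op m.y m.x))) : fmem ρ (mv v (J St)) := by
  subst hv
  rw [J, fmem_mkN]
  intro W' k
  refine ⟨W', 𝟙 W', m, w ≫ k, ?_, ?_⟩
  · simp only [Category.comp_id, Category.assoc]
  · rw [Category.comp_id, ← mv_mv]
    exact feq_mv k hρ

/-- the joint separation for one Q-piece -/
def Sep (F A B : N (XX0 p0 h0)) : Prop :=
  ∀ (P : Piece F A B) (Q : QPiece (ιX p0 h0) P) (i : Ordinal.{0}) (h : Large P Q i)
    (i' : Ordinal.{0}) (h' : Large P Q i') {w : D} (e : Q.Bq.x ⟶ w) {d : D} (s t : d ⟶ P.Z'.x),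
    s ≫ fg P Q i h ≫ e = t ≫ fg P Q i' h' ≫ e → ¬ Thru s P.α.u → ¬ Thru t P.α.u → i = i'

theorem J_total (St : Setup F A B) (hsep : Sep F A B) {W : CObj D} (v : XX1 p0 h0 ⟶ W)
    (y0 : N W) (hy0 : fmem y0 (mv v (mv (ιX p0 h0) B))) :
    ∃ (W' : CObj D) (k : W ⟶ W') (x : N W'), fmem (op (mv k y0) x) (mv (v ≫ k) (J St)) := by
  classical
  rw [mv_mv] at hy0
  obtain ⟨W1, w1, P, hP, e0, hu, hy⟩ := St.S_cover _ y0 hy0
  obtain ⟨W2, w2, Q, hQ, e1, hγ, hy'⟩ := St.T_cover P (v ≫ w1) e0 (by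
    rw [hu, Category.assoc])
  obtain ⟨i0, hi0, -⟩ := St.I_unb P Q hQ 0
  let f : Ordinal.{0} → (P.Z'.x ⟶ Q.Bq.x) := fun i =>
    if h : i ∈ St.I P Q then fg P Q i (St.I_large P Q i h) else fg P Q i0 (St.I_large P Q i0 hi0)
  have hfi : ∀ i (h : i ∈ St.I P Q), f i = fg P Q i (St.I_large P Q i h) := by
    intro i h
    exact dif_pos h
  obtain ⟨q, hle, hsm, i, hi, hgood, hleast⟩ := _root_.P323.H70.exists_least_good P.k P.cons P.u.u Q.e
    (St.I P Q) (fun o => by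
      obtain ⟨i, hi, ho⟩ := St.I_unb P Q hQ o
      exact ⟨i, hi, ho⟩) f (by
      intro i hi
      rw [hfi i hi]
      have h1 := fg_α P Q i (St.I_large P Q i hi)
      have h2 := congrArg CHom.u Q.comm
      rw [← comp_u, h2, ← h1, Piece.α, comp_u, Category.assoc]) e1 (by
      intro i hi j hj d s t hst hs ht
      rw [hfi i hi, hfi j hj] at hst
      exact hsep P Q i _ j _ e1.u s t hst hs ht)
  have hm : Sm (Col.pull e1.u q) := by
    have hsm' : Small.{0} {z // q z ≠ none} := hsm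
    refine small_of_injective (β := {z // q z ≠ none})
      (f := fun z => (⟨Dn.post e1.u z.1, z.2⟩ : {z // q z ≠ none})) ?_
    intro z z' hzz
    exact Subtype.ext (Dn.post_injective e1.u (congrArg (fun t => t.1) hzz))
  rw [hfi i hi] at hgood
  let m : JIdx St :=
    { P := P, hP := hP, Q := Q, hQ := hQ, i := i, hi := hi
      r := Col.pull e1.u q
      le := Col.Le.trans (CHom.le e1) (hle.pull e1.u)
      sm := hm
      good := hgood
      least := by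
        intro j hji hj
        have h1 := hleast j hj hji
        rwa [hfi j hj] at h1 }
  let w3 : W2 ⟶ recol W2 q hsm := toRecol W2 q hsm hle
  let w : m.O ⟶ recol W2 q hsm := CHom.mk e1.u (Col.Le.refl _)
  have hγw : m.v ≫ w = v ≫ w1 ≫ w2 ≫ w3 := by
    have h1 : m.v ≫ w = Q.γ ≫ e1 ≫ w3 := by
      apply chom_ext
      show (Q.γ.u ≫ 𝟙 _) ≫ e1.u = Q.γ.u ≫ e1.u ≫ 𝟙 _
      rw [Category.comp_id, Category.comp_id]
    rw [h1, ← Category.assoc, hγ, Category.assoc, Category.assoc]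
  have hew : m.eZ ≫ w = Q.e ≫ e1 ≫ w3 := by
    apply chom_ext
    show (Q.e.u ≫ 𝟙 _) ≫ e1.u = Q.e.u ≫ e1.u ≫ 𝟙 _
    rw [Category.comp_id, Category.comp_id]
  refine ⟨recol W2 q hsm, w1 ≫ w2 ≫ w3, mv w m.x, ?_⟩
  refine mem_J St m w _ hγw _ ?_
  refine feq_trans (op_feq.2 ⟨?_, feq_refl _⟩) (feq_symm (op_mv w m.y m.x))
  have h1 : feq (mv (w2 ≫ w3) (mv w1 y0)) (mv (w2 ≫ w3) (mv e0 P.y)) := feq_mv _ hy
  have h2 : feq (mv w3 (mv (e0 ≫ w2) P.y)) (mv w3 (mv (Q.e ≫ e1) P.y)) := feq_mv _ hy'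
  rw [mv_mv, mv_mv] at h1
  rw [mv_mv, mv_mv, Category.assoc, Category.assoc] at h2
  have h3 : mv w m.y = mv (Q.e ≫ e1 ≫ w3) P.y := by
    rw [← hew]
    exact mv_mv _ _ _
  rw [h3]
  exact feq_trans h1 h2

end Vale.Agent.P323.H309
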